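import Mathlib

/-!
# P216: closed geodesics in metric terms

Definitions only. In a Riemannian manifold with its Riemannian distance, the curves that
near every time multiply time differences by a fixed constant `v > 0` are exactly the
nonconstant geodesics (parametrized proportionally to arc length), so the notions below are
the usual ones when the metric space is a Riemannian manifold.
-/

namespace Vale.Agent.Lib.P216

/-- `c` is a local geodesic of speed `v`: around every time `t` there is a neighbourhood on
which the distance between two points of the curve is exactly `v` times the time difference. -/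
def IsLocGeod {M : Type*} [MetricSpace M] (c : ℝ → M) (v : ℝ) : Prop :=
  ∀ t : ℝ, ∃ ε : ℝ, 0 < ε ∧ ∀ s s' : ℝ, |s - t| < ε → |s' - t| < ε →
    dist (c s) (c s') = v * |s - s'|

/-- `c` is a closed geodesic: a local geodesic of positive speed (hence nonconstant) that is
periodic with some positive period. -/
def IsClosedGeodesic {M : Type*} [MetricSpace M] (c : ℝ → M) : Prop :=
  (∃ v : ℝ, 0 < v ∧ IsLocGeod c v) ∧ ∃ τ : ℝ, 0 < τ ∧ ∀ t : ℝ, c (t + τ) = c t

end Vale.Agent.Lib.P216
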