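import Vale.Agent.Lib.P216.Defs

/-!
# P216: closed geodesics of a product metric
-/

namespace Vale.Agent.Lib.P216

open Filter Topology

section Basics

variable {M : Type*} [MetricSpace M]

theorem IsLocGeod.continuous {c : ℝ → M} {v : ℝ} (hc : IsLocGeod c v) : Continuous c := by
  rw [continuous_iff_continuousAt]
  intro t
  obtain ⟨ε, hε, h⟩ := hc t
  rw [Metric.continuousAt_iff]
  intro δ hδ
  refine ⟨min ε (δ / (|v| + 1)), lt_min hε (div_pos hδ (by positivity)), ?_⟩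
  intro s hs
  rw [Real.dist_eq] at hs
  have h1 : |s - t| < ε := lt_of_lt_of_le hs (min_le_left _ _)
  have h2 : |s - t| < δ / (|v| + 1) := lt_of_lt_of_le hs (min_le_right _ _)
  rw [h s t h1 (by simpa using hε)]
  have h3 : |s - t| * (|v| + 1) < δ := by
    rwa [lt_div_iff₀ (by positivity)] at h2
  have h4 : v * |s - t| ≤ |v| * |s - t| :=
    mul_le_mul_of_nonneg_right (le_abs_self v) (abs_nonneg _)
  nlinarith [abs_nonneg (s - t), abs_nonneg v]

theorem IsLocGeod.scale {c : ℝ → M} {v : ℝ} (hc : IsLocGeod c v) {a : ℝ} (ha : 0 < a) :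
    IsLocGeod (fun t => c (a * t)) (v * a) := by
  intro t
  obtain ⟨ε, hε, h⟩ := hc (a * t)
  refine ⟨ε / a, div_pos hε ha, ?_⟩
  intro s s' hs hs'
  have e1 : ∀ r : ℝ, |r - t| < ε / a → |a * r - a * t| < ε := by
    intro r hr
    rw [← mul_sub, abs_mul, abs_of_pos ha]
    rw [lt_div_iff₀ ha] at hr
    linarith
  rw [h (a * s) (a * s') (e1 s hs) (e1 s' hs'), ← mul_sub, abs_mul, abs_of_pos ha]
  ring

end Basics

section Product

variable {X Y Z : Type*} [MetricSpace X] [MetricSpace Y] [MetricSpace Z]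

theorem IsLocGeod.prod (e : Z ≃ X × Y)
    (he : ∀ p q : Z, dist p q ^ 2 = dist (e p).1 (e q).1 ^ 2 + dist (e p).2 (e q).2 ^ 2)
    {c1 : ℝ → X} {c2 : ℝ → Y} {v1 v2 : ℝ} (h1 : IsLocGeod c1 v1) (h2 : IsLocGeod c2 v2) :
    IsLocGeod (fun t => e.symm (c1 t, c2 t)) (Real.sqrt (v1 ^ 2 + v2 ^ 2)) := by
  intro t
  obtain ⟨ε1, hε1, g1⟩ := h1 t
  obtain ⟨ε2, hε2, g2⟩ := h2 t
  refine ⟨min ε1 ε2, lt_min hε1 hε2, ?_⟩
  intro s s' hs hs'
  have d1 := g1 s s' (lt_of_lt_of_le hs (min_le_left _ _)) (lt_of_lt_of_le hs' (min_le_left _ _))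
  have d2 := g2 s s' (lt_of_lt_of_le hs (min_le_right _ _)) (lt_of_lt_of_le hs' (min_le_right _ _))
  have hsq := he (e.symm (c1 s, c2 s)) (e.symm (c1 s', c2 s'))
  simp only [Equiv.apply_symm_apply] at hsq
  rw [d1, d2] at hsq
  have hsq' : dist (e.symm (c1 s, c2 s)) (e.symm (c1 s', c2 s')) ^ 2 =
      (v1 ^ 2 + v2 ^ 2) * |s - s'| ^ 2 := by rw [hsq]; ring
  calc dist (e.symm (c1 s, c2 s)) (e.symm (c1 s', c2 s'))
      = Real.sqrt (dist (e.symm (c1 s, c2 s)) (e.symm (c1 s', c2 s')) ^ 2) :=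
        (Real.sqrt_sq dist_nonneg).symm
    _ = Real.sqrt ((v1 ^ 2 + v2 ^ 2) * |s - s'| ^ 2) := by rw [hsq']
    _ = Real.sqrt (v1 ^ 2 + v2 ^ 2) * |s - s'| := by
        rw [Real.sqrt_mul (by positivity), Real.sqrt_sq (abs_nonneg _)]

/-- If the trace of `(c, d)` is contained in the trace of `(c, d')`, where `c` has positive
speed and `(c, d')` is periodic, then `d` and `d'` have the same speed. -/
theorem speed_eq_of_range_subset (c : ℝ → X) (d d' : ℝ → Y) (v w w' τ : ℝ) (hv : 0 < v)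
    (hτ : 0 < τ) (hc : IsLocGeod c v) (hd : IsLocGeod d w) (hd' : IsLocGeod d' w')
    (pc : ∀ t, c (t + τ) = c t) (pd' : ∀ t, d' (t + τ) = d' t)
    (hsub : Set.range (fun t => (c t, d t)) ⊆ Set.range (fun t => (c t, d' t))) : w = w' := by
  have hper : Function.Periodic (fun t => (c t, d' t)) τ := by
    intro t
    simp only [pc t, pd' t]
  -- the sequence of times `1 / (k + 1)` and matching times in `[0, τ]`
  have hex : ∀ k : ℕ, ∃ t ∈ Set.Icc (0 : ℝ) τ,
      (c t, d' t) = (c (1 / ((k : ℝ) + 1)), d (1 / ((k : ℝ) + 1))) := by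
    intro k
    obtain ⟨t, ht⟩ := hsub (Set.mem_range_self (1 / ((k : ℝ) + 1)))
    obtain ⟨y, hy, hy'⟩ := hper.exists_mem_Ico₀ hτ t
    exact ⟨y, Set.Ico_subset_Icc_self hy, by rw [← ht]; exact hy'.symm⟩
  choose tk htk_mem htk using hex
  obtain ⟨tstar, -, φ, hφ, hlim⟩ := isCompact_Icc.tendsto_subseq htk_mem
  have hcc : Continuous c := hc.continuous
  have hdc : Continuous d := hd.continuous
  have hd'c : Continuous d' := hd'.continuous
  have hs0 : Tendsto (fun k : ℕ => 1 / ((k : ℝ) + 1)) atTop (𝓝 0) :=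
    tendsto_one_div_add_atTop_nhds_zero_nat
  have hs0φ : Tendsto (fun j : ℕ => 1 / ((φ j : ℝ) + 1)) atTop (𝓝 0) :=
    hs0.comp hφ.tendsto_atTop
  -- the limit point lies over the starting point
  have hlimF : Tendsto (fun j => (c (tk (φ j)), d' (tk (φ j)))) atTop (𝓝 (c tstar, d' tstar)) :=
    ((hcc.prodMk hd'c).tendsto tstar).comp hlim
  have hlimG : Tendsto (fun j => (c (tk (φ j)), d' (tk (φ j)))) atTop (𝓝 (c 0, d 0)) := by
    have : (fun j => (c (tk (φ j)), d' (tk (φ j)))) =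
        fun j => (c (1 / ((φ j : ℝ) + 1)), d (1 / ((φ j : ℝ) + 1))) := by
      funext j; exact htk (φ j)
    rw [this]
    exact ((hcc.prodMk hdc).tendsto 0).comp hs0φ
  have hpt : (c tstar, d' tstar) = (c 0, d 0) := tendsto_nhds_unique hlimF hlimG
  have hpt1 : c tstar = c 0 := congrArg Prod.fst hpt
  have hpt2 : d' tstar = d 0 := congrArg Prod.snd hpt
  -- local isometry radii
  obtain ⟨εc, hεc, gc⟩ := hc tstar
  obtain ⟨εd', hεd', gd'⟩ := hd' tstar
  obtain ⟨εc0, hεc0, gc0⟩ := hc 0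
  obtain ⟨εd0, hεd0, gd0⟩ := hd 0
  have ev1 : ∀ᶠ j in atTop, |tk (φ j) - tstar| < min εc εd' := by
    have := (Metric.tendsto_nhds.mp hlim) (min εc εd') (lt_min hεc hεd')
    simpa [Real.dist_eq] using this
  have ev2 : ∀ᶠ j in atTop, |1 / ((φ j : ℝ) + 1) - 0| < min εc0 εd0 := by
    have := (Metric.tendsto_nhds.mp hs0φ) (min εc0 εd0) (lt_min hεc0 hεd0)
    simpa [Real.dist_eq] using this
  obtain ⟨j, hj1, hj2⟩ := (ev1.and ev2).exists
  set s : ℝ := 1 / ((φ j : ℝ) + 1) with hs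
  have hspos : 0 < s := by positivity
  have hk := htk (φ j)
  have hk1 : c (tk (φ j)) = c s := congrArg Prod.fst hk
  have hk2 : d' (tk (φ j)) = d s := congrArg Prod.snd hk
  have a1 := gc (tk (φ j)) tstar (lt_of_lt_of_le hj1 (min_le_left _ _)) (by simpa using hεc)
  have a2 := gd' (tk (φ j)) tstar (lt_of_lt_of_le hj1 (min_le_right _ _)) (by simpa using hεd')
  have b1 := gc0 s 0 (lt_of_lt_of_le hj2 (min_le_left _ _)) (by simpa using hεc0)
  have b2 := gd0 s 0 (lt_of_lt_of_le hj2 (min_le_right _ _)) (by simpa using hεd0)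
  rw [hk1, hpt1, b1] at a1
  rw [hk2, hpt2, b2] at a2
  have habs : |s - 0| = s := by rw [sub_zero, abs_of_pos hspos]
  rw [habs] at a1 a2
  have e1 : |tk (φ j) - tstar| = s := by
    have := mul_left_cancel₀ hv.ne' a1
    exact this.symm
  rw [e1] at a2
  exact mul_right_cancel₀ hspos.ne' a2

/-- Main theorem: a metric space that is the Pythagorean product of two metric spaces, each
with a closed geodesic, has infinitely many closed geodesics with pairwise distinct traces. -/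
theorem main (e : Z ≃ X × Y)
    (he : ∀ p q : Z, dist p q ^ 2 = dist (e p).1 (e q).1 ^ 2 + dist (e p).2 (e q).2 ^ 2)
    (hX : ∃ c : ℝ → X, IsClosedGeodesic c) (hY : ∃ c : ℝ → Y, IsClosedGeodesic c) :
    ∃ γ : ℕ → ℝ → Z, (∀ m, IsClosedGeodesic (γ m)) ∧
      Function.Injective (fun m => Set.range (γ m)) := by
  obtain ⟨c1, ⟨v1, hv1, g1⟩, τ1, hτ1, p1⟩ := hX
  obtain ⟨c2, ⟨v2, hv2, g2⟩, τ2, hτ2, p2⟩ := hY
  have ha : ∀ m : ℕ, 0 < ((m : ℝ) + 1) * τ2 / τ1 := fun m => by positivity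
  have gd : ∀ m : ℕ, IsLocGeod (fun t => c2 (((m : ℝ) + 1) * τ2 / τ1 * t))
      (v2 * (((m : ℝ) + 1) * τ2 / τ1)) := fun m => g2.scale (ha m)
  have pd : ∀ (m : ℕ) (t : ℝ), c2 (((m : ℝ) + 1) * τ2 / τ1 * (t + τ1)) =
      c2 (((m : ℝ) + 1) * τ2 / τ1 * t) := by
    intro m t
    have hper : Function.Periodic c2 τ2 := p2
    have h := (hper.nat_mul (m + 1)) (((m : ℝ) + 1) * τ2 / τ1 * t)
    rw [← h]
    congr 1
    push_cast
    field_simp
  refine ⟨fun m t => e.symm (c1 t, c2 (((m : ℝ) + 1) * τ2 / τ1 * t)), ?_, ?_⟩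
  · intro m
    refine ⟨⟨Real.sqrt (v1 ^ 2 + (v2 * (((m : ℝ) + 1) * τ2 / τ1)) ^ 2), ?_,
      IsLocGeod.prod e he g1 (gd m)⟩, τ1, hτ1, ?_⟩
    · apply Real.sqrt_pos.mpr
      positivity
    · intro t
      simp only [p1 t, pd m t]
  · intro m m' hmm
    simp only at hmm
    have hrange : Set.range (fun t => (c1 t, c2 (((m : ℝ) + 1) * τ2 / τ1 * t))) =
        Set.range (fun t => (c1 t, c2 (((m' : ℝ) + 1) * τ2 / τ1 * t))) := by
      have h1 : ∀ k : ℕ, Set.range (fun t => e.symm (c1 t, c2 (((k : ℝ) + 1) * τ2 / τ1 * t))) =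
          e.symm '' Set.range (fun t => (c1 t, c2 (((k : ℝ) + 1) * τ2 / τ1 * t))) := by
        intro k
        rw [← Set.range_comp]
        rfl
      rw [h1 m, h1 m'] at hmm
      exact e.symm.injective.image_injective hmm
    have hw := speed_eq_of_range_subset c1 _ _ v1 _ _ τ1 hv1 hτ1 g1 (gd m) (gd m') p1 (pd m')
      hrange.le
    have h2 : ((m : ℝ) + 1) * τ2 / τ1 = ((m' : ℝ) + 1) * τ2 / τ1 := mul_left_cancel₀ hv2.ne' hw
    have h3 : ((m : ℝ) + 1) * τ2 = ((m' : ℝ) + 1) * τ2 := by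
      rw [div_eq_div_iff hτ1.ne' hτ1.ne'] at h2
      exact mul_right_cancel₀ hτ1.ne' h2
    have h4 : (m : ℝ) + 1 = (m' : ℝ) + 1 := mul_right_cancel₀ hτ2.ne' h3
    have h5 : (m : ℝ) = (m' : ℝ) := by linarith
    exact_mod_cast h5

end Product

end Vale.Agent.Lib.P216
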